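import Vale.Agent.P208.Final

/-- Negative answer to the Lang-Plaut problem: a doubling subset of the real Hilbert space of
square summable sequences with no bi-Lipschitz embedding into any Euclidean space. -/
theorem Vale.Agent.Results.P208.LangPlaut.result :
    ∃ X : Set (lp (fun _ : ℕ => ℝ) 2),
      (∃ lam : ℕ, ∀ x ∈ X, ∀ r : ℝ, 0 < r → ∃ T : Finset (lp (fun _ : ℕ => ℝ) 2),
        (T : Set (lp (fun _ : ℕ => ℝ) 2)) ⊆ X ∧ T.card ≤ lam ∧
          X ∩ Metric.closedBall x r ⊆ ⋃ t ∈ T, Metric.ball t (r / 2)) ∧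
      ∀ (k : ℕ) (f : X → EuclideanSpace ℝ (Fin k)) (a D : ℝ), 0 < a →
        ¬ ∀ x y : X, a * dist x y ≤ dist (f x) (f y) ∧ dist (f x) (f y) ≤ D * a * dist x y :=
  Vale.Agent.P208.lang_plaut
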